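import Mathlib
import Vale.Agent.Helper8.KK.StarCounts

namespace Vale.Agent.Results.P064.StarForests

open Finset SimpleGraph
open Vale.Agent.Results.P064.StarCounts

lemma toSubgraph_adj_iff {V W : Type*} {G : SimpleGraph V} {F : SimpleGraph W} (f : Copy F G)
    (u w : V) : f.toSubgraph.Adj u w ↔ ∃ a b, F.Adj a b ∧ f a = u ∧ f b = w := by
  simp [Copy.toSubgraph, Subgraph.map_adj, Relation.Map]

lemma toSubgraph_verts {V W : Type*} {G : SimpleGraph V} {F : SimpleGraph W} (f : Copy F G) :
    f.toSubgraph.verts = Set.range f := by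
  simp [Copy.toSubgraph, Subgraph.map_verts]

/-- Labelled copies are unlabelled copies times automorphisms. -/
lemma labelled_eq {V W : Type*} [Fintype V] [Fintype W] (G : SimpleGraph V) (F : SimpleGraph W) :
    G.labelledCopyCount F = G.copyCount F * Nat.card (F ≃g F) := by
  classical
  rw [labelledCopyCount, copyCount]
  have h1 : Fintype.card (Copy F G)
      = ∑ G' ∈ (Finset.univ : Finset G.Subgraph).filter (fun G' => Nonempty (F ≃g G'.coe)),
        ((Finset.univ : Finset (Copy F G)).filter (fun f => f.toSubgraph = G')).card := by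
    rw [← Finset.card_univ]
    apply Finset.card_eq_sum_card_fiberwise
    intro f _
    rw [Finset.mem_coe, Finset.mem_filter]
    exact ⟨Finset.mem_univ _, ⟨f.isoToSubgraph⟩⟩
  rw [h1]
  apply Finset.sum_const_nat
  intro G' hG'
  rw [Finset.mem_filter] at hG'
  obtain ⟨f₀, -, hf₀⟩ := Copy.toSubgraph_surjOn hG'.2
  subst hf₀
  have hcomp : ∀ α : F ≃g F, (f₀.comp α.toCopy).toSubgraph = f₀.toSubgraph := by
    intro α
    apply Subgraph.ext
    · rw [toSubgraph_verts, toSubgraph_verts]
      ext u
      constructor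
      · rintro ⟨a, rfl⟩
        exact ⟨α a, rfl⟩
      · rintro ⟨a, rfl⟩
        exact ⟨α.symm a, by simp⟩
    · funext u w
      apply propext
      rw [toSubgraph_adj_iff, toSubgraph_adj_iff]
      constructor
      · rintro ⟨a, b, hab, rfl, rfl⟩
        exact ⟨α a, α b, α.map_rel_iff.mpr hab, rfl, rfl⟩
      · rintro ⟨a, b, hab, rfl, rfl⟩
        refine ⟨α.symm a, α.symm b, α.symm.map_rel_iff.mpr hab, by simp, by simp⟩
  let Φ : (F ≃g F) → {f : Copy F G // f.toSubgraph = f₀.toSubgraph} :=
    fun α => ⟨f₀.comp α.toCopy, hcomp α⟩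
  have hΦinj : Function.Injective Φ := by
    intro α β hαβ
    have h2 : f₀.comp α.toCopy = f₀.comp β.toCopy := congrArg Subtype.val hαβ
    apply RelIso.ext
    intro a
    have h3 := congrArg (fun g : Copy F G => g a) h2
    simp only [Copy.comp_apply] at h3
    exact f₀.injective h3
  have hΦsurj : Function.Surjective Φ := by
    rintro ⟨f, hf⟩
    have hrange : ∀ a, ∃ a', f₀ a' = f a := by
      intro a
      have : f a ∈ f.toSubgraph.verts := by rw [toSubgraph_verts]; exact ⟨a, rfl⟩
      rw [hf, toSubgraph_verts] at this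
      exact this
    choose g hg using hrange
    have hginj : Function.Injective g := by
      intro a b hab
      have h5 : f a = f b := by rw [← hg a, ← hg b, hab]
      exact f.injective h5
    have hgbij : Function.Bijective g := Finite.injective_iff_bijective.mp hginj
    have hrel : ∀ a b, F.Adj (g a) (g b) ↔ F.Adj a b := by
      intro a b
      constructor
      · intro h
        have h4 : f₀.toSubgraph.Adj (f a) (f b) := by
          rw [toSubgraph_adj_iff]
          exact ⟨g a, g b, h, hg a, hg b⟩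
        rw [← hf, toSubgraph_adj_iff] at h4
        obtain ⟨a', b', hab', ha', hb'⟩ := h4
        rw [← f.injective ha', ← f.injective hb']
        exact hab'
      · intro h
        have h4 : f.toSubgraph.Adj (f a) (f b) := by
          rw [toSubgraph_adj_iff]
          exact ⟨a, b, h, rfl, rfl⟩
        rw [hf, toSubgraph_adj_iff] at h4
        obtain ⟨a', b', hab', ha', hb'⟩ := h4
        have e1' : f₀ a' = f₀ (g a) := by rw [ha', hg a]
        have e2' : f₀ b' = f₀ (g b) := by rw [hb', hg b]
        have e1 : a' = g a := f₀.injective e1'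
        have e2 : b' = g b := f₀.injective e2'
        rw [← e1, ← e2]
        exact hab'
    let α : F ≃g F := ⟨Equiv.ofBijective g hgbij, @fun a b => hrel a b⟩
    refine ⟨α, ?_⟩
    apply Subtype.ext
    apply Copy.ext
    intro a
    show f₀ (g a) = f a
    exact hg a
  have hcard : Nat.card (F ≃g F) = Nat.card {f : Copy F G // f.toSubgraph = f₀.toSubgraph} :=
    Nat.card_congr (Equiv.ofBijective Φ ⟨hΦinj, hΦsurj⟩)
  rw [hcard, Nat.card_eq_fintype_card, Fintype.card_subtype]


/-- The vertex-disjoint union of the stars with `m i` leaves, `i < r`: the vertices are the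
pairs `(i, a)` with `a` the centre (`Sum.inl 0`) or one of the `m i` leaves (`Sum.inr j`) of the
`i`-th star; two vertices are adjacent when they lie in the same star and exactly one of them
is its centre. -/
def starForest {r : ℕ} (m : Fin r → ℕ) : SimpleGraph (Σ i : Fin r, Fin 1 ⊕ Fin (m i)) where
  Adj a b := a.1 = b.1 ∧ ((a.2.isLeft ∧ b.2.isRight) ∨ (a.2.isRight ∧ b.2.isLeft))
  symm := ⟨fun _ _ h => ⟨h.1.symm, h.2.elim (fun h' => Or.inr ⟨h'.2, h'.1⟩)
    (fun h' => Or.inl ⟨h'.2, h'.1⟩)⟩⟩
  loopless := ⟨fun a h => by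
    rcases h.2 with h' | h'
    · cases hh : a.2 <;> simp [hh] at h'
    · cases hh : a.2 <;> simp [hh] at h'⟩

lemma lcc_eq {V W : Type*} [Fintype V] [Fintype W] (G : SimpleGraph V) (F : SimpleGraph W) :
    G.labelledCopyCount F = Nat.card (Copy F G) := by
  classical
  rw [labelledCopyCount]
  exact (@Nat.card_eq_fintype_card (Copy F G) _).symm

lemma finite_copy {V W : Type*} [Finite V] [Finite W] (G : SimpleGraph V) (F : SimpleGraph W) :
    Finite (Copy F G) :=
  Finite.of_injective (fun f => (f : W → V)) DFunLike.coe_injective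

/-- Labelled copies in the complete graph. -/
lemma labelled_top {W : Type*} [Fintype W] (F : SimpleGraph W) (n : ℕ) :
    (⊤ : SimpleGraph (Fin n)).labelledCopyCount F = n.descFactorial (Fintype.card W) := by
  classical
  rw [lcc_eq]
  have e : Copy F (⊤ : SimpleGraph (Fin n)) ≃ (W ↪ Fin n) :=
    { toFun := fun f => f.toEmbedding
      invFun := fun e => ⟨⟨e, fun h => by rw [top_adj]; exact e.injective.ne h.ne⟩, e.injective⟩
      left_inv := fun f => by ext a; rfl
      right_inv := fun e => by ext a; rfl }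
  rw [Nat.card_congr e, Nat.card_eq_fintype_card, Fintype.card_embedding_eq, Fintype.card_fin]

/-- Labelled copies are monotone in the host graph. -/
lemma labelled_le_top {n : ℕ} {W : Type*} [Fintype W] (H : SimpleGraph (Fin n))
    (F : SimpleGraph W) :
    H.labelledCopyCount F ≤ (⊤ : SimpleGraph (Fin n)).labelledCopyCount F := by
  classical
  rw [lcc_eq, lcc_eq]
  have := finite_copy (⊤ : SimpleGraph (Fin n)) F
  apply Nat.card_le_card_of_injective (fun f => (Copy.ofLE H ⊤ le_top).comp f)
  intro f g hfg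
  apply Copy.ext
  intro a
  have h := congrArg (fun k : Copy F (⊤ : SimpleGraph (Fin n)) => k a) hfg
  simpa using h

/-- A labelled copy of a star forest restricts to a labelled copy of each of its stars. -/
lemma labelled_starForest_le {n r : ℕ} (H : SimpleGraph (Fin n)) (m : Fin r → ℕ) :
    H.labelledCopyCount (starForest m)
      ≤ ∏ i, H.labelledCopyCount (completeBipartiteGraph (Fin 1) (Fin (m i))) := by
  classical
  rw [lcc_eq]
  simp only [lcc_eq]
  rw [← Nat.card_pi]
  let R : Copy (starForest m) H → (∀ i, Copy (completeBipartiteGraph (Fin 1) (Fin (m i))) H) :=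
    fun f i => ⟨⟨fun a => f ⟨i, a⟩, fun {a b} hab => f.toHom.map_rel' (a := ⟨i, a⟩) (b := ⟨i, b⟩)
      ⟨rfl, hab⟩⟩, fun a b hab => by
        have h1 : (⟨i, a⟩ : Σ i : Fin r, Fin 1 ⊕ Fin (m i)) = ⟨i, b⟩ := f.injective hab
        simpa using h1⟩
  have : ∀ i, Finite (Copy (completeBipartiteGraph (Fin 1) (Fin (m i))) H) :=
    fun i => finite_copy H _
  apply Nat.card_le_card_of_injective R
  intro f g hfg
  apply Copy.ext
  rintro ⟨i, a⟩
  have h1 := congrFun hfg i
  have h2 := congrArg (fun k : Copy (completeBipartiteGraph (Fin 1) (Fin (m i))) H => k a) h1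
  exact h2

/-- Labelled copies of a star are at most the sum of falling factorials of the degrees. -/
lemma labelled_star_le {n : ℕ} (H : SimpleGraph (Fin n)) [DecidableRel H.Adj] (m : ℕ) :
    H.labelledCopyCount (completeBipartiteGraph (Fin 1) (Fin m))
      ≤ ∑ v : Fin n, (H.degree v).descFactorial m := by
  classical
  rw [lcc_eq]
  have hc : Nat.card (Σ v : Fin n, (Fin m ↪ H.neighborSet v))
      = ∑ v : Fin n, (H.degree v).descFactorial m := by
    rw [Nat.card_sigma]
    apply Finset.sum_congr rfl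
    intro v _
    rw [Nat.card_eq_fintype_card, Fintype.card_embedding_eq, Fintype.card_fin,
      card_neighborSet_eq_degree]
  rw [← hc]
  let R : Copy (completeBipartiteGraph (Fin 1) (Fin m)) H → (Σ v : Fin n, (Fin m ↪ H.neighborSet v)) :=
    fun f => ⟨f (Sum.inl 0), ⟨fun i => ⟨f (Sum.inr i), by
      rw [mem_neighborSet]
      exact f.toHom.map_rel' (a := Sum.inl 0) (b := Sum.inr i) (by simp [completeBipartiteGraph])⟩,
      fun i j hij => by
        have h1 : f (Sum.inr i) = f (Sum.inr j) := congrArg Subtype.val hij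
        exact Sum.inr_injective (f.injective h1)⟩⟩
  let π : (Σ v : Fin n, (Fin m ↪ H.neighborSet v)) → Fin n × (Fin m → Fin n) :=
    fun p => (p.1, fun i => ((p.2 i : H.neighborSet p.1) : Fin n))
  apply Nat.card_le_card_of_injective R
  intro f g hfg
  have h1 := congrArg π hfg
  have h2 : f (Sum.inl 0) = g (Sum.inl 0) := congrArg Prod.fst h1
  have h3 : (fun i => f (Sum.inr i)) = (fun i => g (Sum.inr i)) := congrArg Prod.snd h1
  apply Copy.ext
  rintro (z | i)
  · have hz : z = 0 := Subsingleton.elim _ _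
    subst hz
    exact h2
  · exact congrFun h3 i

/-- Numerical bound for labelled copies of one star. -/
lemma labelled_star_bound {n : ℕ} (H : SimpleGraph (Fin n)) (q : ℝ) (hq0 : 0 ≤ q)
    (hyp : AllExpectedAtLeastOne H q) (m : ℕ) (hm : 1 ≤ m) :
    (H.labelledCopyCount (completeBipartiteGraph (Fin 1) (Fin m)) : ℝ)
      ≤ (n : ℝ) ^ (m + 1) * (1000 * q) ^ m := by
  classical
  have h1 := labelled_star_le H m
  have h2 : (∑ v : Fin n, (H.degree v).descFactorial m : ℕ)
      = m.factorial * ∑ v : Fin n, (H.degree v).choose m := by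
    rw [Finset.mul_sum]
    apply Finset.sum_congr rfl
    intro v _
    exact Nat.descFactorial_eq_factorial_mul_choose _ _
  rw [h2] at h1
  have h3 : (H.labelledCopyCount (completeBipartiteGraph (Fin 1) (Fin m)) : ℝ)
      ≤ (m.factorial : ℝ) * ∑ v : Fin n, ((H.degree v).choose m : ℝ) := by
    exact_mod_cast h1
  have hq : (0 : ℝ) ≤ (1000 * q) ^ m := by positivity
  by_cases hmn : m + 1 ≤ n
  · have h4 := degree_sum_bound H q hq0 hyp m hm hmn
    have h5 : (n.choose (m + 1) : ℝ) ≤ (n : ℝ) ^ (m + 1) / (m + 1).factorial :=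
      Nat.choose_le_pow_div (m + 1) n
    have hf1 : (0 : ℝ) < (m + 1).factorial := by exact_mod_cast Nat.factorial_pos _
    have hf0 : (0 : ℝ) < m.factorial := by exact_mod_cast Nat.factorial_pos _
    have h6 : (m.factorial : ℝ) * (n.choose (m + 1) : ℝ) ≤ (n : ℝ) ^ (m + 1) := by
      have h7 : (m.factorial : ℝ) ≤ (m + 1).factorial := by
        exact_mod_cast Nat.factorial_le (Nat.le_succ m)
      have hn0 : (0 : ℝ) ≤ (n : ℝ) ^ (m + 1) := by positivity
      calc (m.factorial : ℝ) * (n.choose (m + 1) : ℝ)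
          ≤ (m + 1).factorial * ((n : ℝ) ^ (m + 1) / (m + 1).factorial) :=
            mul_le_mul h7 h5 (by positivity) (by positivity)
        _ = (n : ℝ) ^ (m + 1) := by field_simp
    calc (H.labelledCopyCount (completeBipartiteGraph (Fin 1) (Fin m)) : ℝ)
        ≤ (m.factorial : ℝ) * ∑ v : Fin n, ((H.degree v).choose m : ℝ) := h3
      _ ≤ (m.factorial : ℝ) * ((n.choose (m + 1) : ℝ) * (1000 * q) ^ m) :=
          mul_le_mul_of_nonneg_left h4 hf0.le
      _ = (m.factorial : ℝ) * (n.choose (m + 1) : ℝ) * (1000 * q) ^ m := by ring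
      _ ≤ (n : ℝ) ^ (m + 1) * (1000 * q) ^ m := mul_le_mul_of_nonneg_right h6 hq
  · have hz : ∀ v : Fin n, ((H.degree v).choose m : ℝ) = 0 := by
      intro v
      have h1 := H.degree_lt_card_verts v
      rw [Fintype.card_fin] at h1
      rw [Nat.choose_eq_zero_of_lt (by omega)]
      simp
    rw [Finset.sum_congr rfl (fun v _ => hz v), Finset.sum_const_zero, mul_zero] at h3
    exact h3.trans (by positivity)

lemma pow_le_descFactorial (n f : ℕ) (hf : f ≤ n) :
    (n : ℝ) ^ f ≤ 3 ^ f * (n.descFactorial f : ℝ) := by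
  rcases Nat.eq_zero_or_pos f with rfl | hfpos
  · simp
  · have h1 := pow_self_le f
    have h2 := div_pow_le_choose f hfpos n hf
    have hfr : (0 : ℝ) < f := by exact_mod_cast hfpos
    have h3 : (n.descFactorial f : ℝ) = (f.factorial : ℝ) * (n.choose f : ℝ) := by
      exact_mod_cast Nat.descFactorial_eq_factorial_mul_choose n f
    have h4 : (n : ℝ) ^ f = (f : ℝ) ^ f * ((n : ℝ) / f) ^ f := by
      rw [← mul_pow]
      congr 1
      field_simp
    rw [h4, h3]
    calc (f : ℝ) ^ f * ((n : ℝ) / f) ^ f ≤ (3 ^ f * (f.factorial : ℝ)) * (n.choose f : ℝ) :=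
          mul_le_mul h1 h2 (by positivity) (by positivity)
      _ = 3 ^ f * ((f.factorial : ℝ) * (n.choose f : ℝ)) := by ring

lemma card_starForest_verts {r : ℕ} (m : Fin r → ℕ) :
    Fintype.card (Σ i : Fin r, Fin 1 ⊕ Fin (m i)) = (∑ i, m i) + r := by
  rw [Fintype.card_sigma]
  simp only [Fintype.card_sum, Fintype.card_fin]
  rw [Finset.sum_add_distrib]
  simp [add_comm]

lemma prod_star_bound {n r : ℕ} (H : SimpleGraph (Fin n)) (q : ℝ) (hq0 : 0 ≤ q)
    (hyp : AllExpectedAtLeastOne H q) (m : Fin r → ℕ) (hm : ∀ i, 1 ≤ m i) :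
    (H.labelledCopyCount (starForest m) : ℝ)
      ≤ (n : ℝ) ^ ((∑ i, m i) + r) * (1000 * q) ^ (∑ i, m i) := by
  have h1 := labelled_starForest_le H m
  have h2 : (H.labelledCopyCount (starForest m) : ℝ)
      ≤ ∏ i, (H.labelledCopyCount (completeBipartiteGraph (Fin 1) (Fin (m i))) : ℝ) := by
    exact_mod_cast h1
  have h3 : ∏ i, (H.labelledCopyCount (completeBipartiteGraph (Fin 1) (Fin (m i))) : ℝ)
      ≤ ∏ i : Fin r, ((n : ℝ) ^ (m i + 1) * (1000 * q) ^ (m i)) := by
    apply Finset.prod_le_prod
    · intro i _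
      exact Nat.cast_nonneg _
    · intro i _
      exact labelled_star_bound H q hq0 hyp (m i) (hm i)
  have h4 : ∏ i : Fin r, ((n : ℝ) ^ (m i + 1) * (1000 * q) ^ (m i))
      = (n : ℝ) ^ ((∑ i, m i) + r) * (1000 * q) ^ (∑ i, m i) := by
    rw [Finset.prod_mul_distrib, Finset.prod_pow_eq_pow_sum, Finset.prod_pow_eq_pow_sum]
    congr 2
    rw [Finset.sum_add_distrib]
    simp
  exact (h2.trans h3).trans (le_of_eq h4)

lemma labelled_forest_bound {n r : ℕ} (H : SimpleGraph (Fin n)) (q : ℝ) (hq0 : 0 ≤ q)
    (hyp : AllExpectedAtLeastOne H q) (m : Fin r → ℕ) (hm : ∀ i, 1 ≤ m i) :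
    (H.labelledCopyCount (starForest m) : ℝ)
      ≤ ((⊤ : SimpleGraph (Fin n)).labelledCopyCount (starForest m) : ℝ)
          * (min 1 (9000 * q)) ^ (∑ i, m i) := by
  obtain ⟨e, he⟩ : ∃ e : ℕ, e = ∑ i, m i := ⟨_, rfl⟩
  have hre : r ≤ e := by
    have h1 : ∑ _i : Fin r, 1 ≤ ∑ i, m i := Finset.sum_le_sum (fun i _ => hm i)
    rw [he]
    simpa using h1
  have htop : (⊤ : SimpleGraph (Fin n)).labelledCopyCount (starForest m)
      = n.descFactorial (e + r) := by
    rw [labelled_top, card_starForest_verts, he]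
  have hmono := labelled_le_top H (starForest m)
  have hprod := prod_star_bound H q hq0 hyp m hm
  rw [← he] at hprod ⊢
  by_cases hL : 1 ≤ 9000 * q
  · rw [min_eq_left hL, one_pow, mul_one]
    exact_mod_cast hmono
  rw [not_le] at hL
  rw [min_eq_right hL.le]
  by_cases hfn : e + r ≤ n
  · have h5 := pow_le_descFactorial n (e + r) hfn
    have h6 : (3 : ℝ) ^ (e + r) ≤ 9 ^ e := by
      calc (3 : ℝ) ^ (e + r) ≤ 3 ^ (2 * e) := pow_le_pow_right₀ (by norm_num) (by omega)
        _ = 9 ^ e := by rw [pow_mul]; norm_num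
    have hq' : (0 : ℝ) ≤ (1000 * q) ^ e := by positivity
    rw [htop]
    calc (H.labelledCopyCount (starForest m) : ℝ)
        ≤ (n : ℝ) ^ (e + r) * (1000 * q) ^ e := hprod
      _ ≤ (3 ^ (e + r) * (n.descFactorial (e + r) : ℝ)) * (1000 * q) ^ e :=
          mul_le_mul_of_nonneg_right h5 hq'
      _ ≤ (9 ^ e * (n.descFactorial (e + r) : ℝ)) * (1000 * q) ^ e := by
          apply mul_le_mul_of_nonneg_right _ hq'
          exact mul_le_mul_of_nonneg_right h6 (Nat.cast_nonneg _)
      _ = (n.descFactorial (e + r) : ℝ) * (9000 * q) ^ e := by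
          have h9 : (9000 * q) ^ e = 9 ^ e * (1000 * q) ^ e := by
            rw [← mul_pow]
            congr 1
            ring
          rw [h9]
          ring
  · have h0 : (⊤ : SimpleGraph (Fin n)).labelledCopyCount (starForest m) = 0 := by
      rw [htop]
      exact Nat.descFactorial_eq_zero_iff_lt.mpr (by omega)
    rw [h0] at hmono
    have h1 : H.labelledCopyCount (starForest m) = 0 := by omega
    rw [h1, h0]
    simp

/-- **The Dubroff-Kahn-Park counting inequality for star forests, with a universal constant.**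
Let `H` be a graph on `n` vertices and `q ≥ 0`, and suppose that every subgraph `F` of `H` has
expected count at least `1` in the random graph `G(n,q)`.  Then for every vertex-disjoint
union `S` of stars (each with at least one edge) the number of copies of `S` in `H` is at most
the expected number of copies of `S` in `G(n, min(1, 9000 q))`. -/
theorem result :
    ∀ (n : ℕ) (H : SimpleGraph (Fin n)) (q : ℝ), 0 ≤ q →
      (∀ F : SimpleGraph (Fin n), F ≤ H →
        1 ≤ ((⊤ : SimpleGraph (Fin n)).copyCount F : ℝ) * q ^ F.edgeSet.ncard) →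
      ∀ (r : ℕ) (m : Fin r → ℕ), (∀ i, 1 ≤ m i) →
        (H.copyCount (starForest m) : ℝ)
          ≤ ((⊤ : SimpleGraph (Fin n)).copyCount (starForest m) : ℝ)
              * (min 1 (9000 * q)) ^ (∑ i, m i) := by
  intro n H q hq0 hyp r m hm
  have hlab := labelled_forest_bound H q hq0 hyp m hm
  have e1 := labelled_eq H (starForest m)
  have e2 := labelled_eq (⊤ : SimpleGraph (Fin n)) (starForest m)
  have hfin : Finite (starForest m ≃g starForest m) :=
    Finite.of_injective (fun α => (α : (Σ i : Fin r, Fin 1 ⊕ Fin (m i)) → _))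
      DFunLike.coe_injective
  have haut : 0 < Nat.card (starForest m ≃g starForest m) := Nat.card_pos
  have hautR : (0 : ℝ) < (Nat.card (starForest m ≃g starForest m) : ℝ) := by exact_mod_cast haut
  rw [e1, e2] at hlab
  push_cast at hlab
  have h7 : (H.copyCount (starForest m) : ℝ) * (Nat.card (starForest m ≃g starForest m) : ℝ)
      ≤ (((⊤ : SimpleGraph (Fin n)).copyCount (starForest m) : ℝ)
          * (min 1 (9000 * q)) ^ (∑ i, m i))
          * (Nat.card (starForest m ≃g starForest m) : ℝ) := by
    calc (H.copyCount (starForest m) : ℝ) * (Nat.card (starForest m ≃g starForest m) : ℝ)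
        ≤ ((⊤ : SimpleGraph (Fin n)).copyCount (starForest m) : ℝ)
            * (Nat.card (starForest m ≃g starForest m) : ℝ)
            * (min 1 (9000 * q)) ^ (∑ i, m i) := hlab
      _ = _ := by ring
  exact le_of_mul_le_mul_right h7 hautR

end Vale.Agent.Results.P064.StarForests
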