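import Vale.Agent.Helper25.KKForest

/-!
P064 (second Kahn–Kalai conjecture): the counting inequality of Dubroff–Kahn–Park type for
all trees and all forests, of arbitrary degrees, with `L q = C * max (8 q) (log n / n)`.
-/

namespace Vale.Agent.Results.P064.AllTrees

open SimpleGraph

/-- If every subgraph of `H` has expected count at least `1` in `G(n,q)`, then
(1) every tree `F` satisfies `N(H,F) ≤ N(K_n,F) * min(1, 6 max(8q, log n / n))^(e(F))`;
(2) every forest `F` satisfies `N(H,F) ≤ N(K_n,F) * min(1, 45 max(8q, log n / n))^(e(F))`;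
(3) if `8 n q ≥ log n`, every forest `F` satisfies `N(H,F) ≤ N(K_n,F) * min(1, 360 q)^(e(F))`. -/
theorem result :
    ∀ (n : ℕ) (H : SimpleGraph (Fin n)) (q : ℝ), 0 ≤ q →
      (∀ F' : SimpleGraph (Fin n), F' ≤ H →
        1 ≤ ((⊤ : SimpleGraph (Fin n)).copyCount F' : ℝ) * q ^ F'.edgeSet.ncard) →
      ∀ (v : ℕ) (F : SimpleGraph (Fin v)),
        (F.IsTree →
          (H.copyCount F : ℝ) ≤ ((⊤ : SimpleGraph (Fin n)).copyCount F : ℝ) *
            (min 1 (6 * max (8 * q) (Real.log n / n))) ^ F.edgeSet.ncard) ∧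
        (F.IsAcyclic →
          (H.copyCount F : ℝ) ≤ ((⊤ : SimpleGraph (Fin n)).copyCount F : ℝ) *
            (min 1 (45 * max (8 * q) (Real.log n / n))) ^ F.edgeSet.ncard) ∧
        (F.IsAcyclic → Real.log n ≤ 8 * n * q →
          (H.copyCount F : ℝ) ≤ ((⊤ : SimpleGraph (Fin n)).copyCount F : ℝ) *
            (min 1 (360 * q)) ^ F.edgeSet.ncard) := by
  intro n H q hq hyp v F
  refine ⟨fun hT => Vale.Agent.Helper25.KKTree.tree_count H q hq hyp F hT,
    fun hF => Vale.Agent.Helper25.KKForest.forest_count H q hq hyp F hF, ?_⟩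
  intro hF hlog
  have h1 := Vale.Agent.Helper25.KKForest.forest_count H q hq hyp F hF
  have hmax : max (8 * q) (Real.log n / n) = 8 * q := by
    apply max_eq_left
    rcases Nat.eq_zero_or_pos n with hn0 | hnpos
    · rw [hn0]
      simp only [Nat.cast_zero, div_zero]
      positivity
    · have hnR : (0 : ℝ) < n := by exact_mod_cast hnpos
      rw [div_le_iff₀ hnR]
      linarith
  rw [hmax] at h1
  have h2 : (45 : ℝ) * (8 * q) = 360 * q := by ring
  rw [h2] at h1
  exact h1

end Vale.Agent.Results.P064.AllTrees
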