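import Vale.Agent.Helper23.KKDegenerate

/-!
P064 (second Kahn–Kalai conjecture): the counting inequality of Dubroff–Kahn–Park type for
all `d`-degenerate graphs, of arbitrary degrees, with `L q = 55 max (q, (log n / n)^(1/d))`.
-/

namespace Vale.Agent.Results.P064.DegenerateGraphs

open SimpleGraph

/-- A graph is `d`-degenerate when every nonempty vertex set `S` contains a vertex with at
most `d` neighbours in `S`.
(I) If every subgraph of `H` has expected count at least `1` in `G(n,q)`, then for every `d`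
and every `d`-degenerate graph `F`:
(1) if `q ≤ c` and `log n ≤ n c^d`, then `N(H,F) ≤ N(K_n,F) * min(1, 55 c)^(e(F))`;
(2) if `log n ≤ n q^d`, then `N(H,F) ≤ N(K_n,F) * min(1, 55 q)^(e(F))`.
(II) If `H` is `d`-degenerate and every subgraph of `H` has expected count at least `1/2` in
`G(n,p)`, `p ≤ c` and `log n ≤ n c^d`, then every subgraph `F'` of `H` satisfies
`N(H,F') ≤ N(K_n,F') * min(1, 110 c)^(e(F'))`. -/
theorem result :
    (∀ (n : ℕ) (H : SimpleGraph (Fin n)) (q : ℝ), 0 ≤ q →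
      (∀ F' : SimpleGraph (Fin n), F' ≤ H →
        1 ≤ ((⊤ : SimpleGraph (Fin n)).copyCount F' : ℝ) * q ^ F'.edgeSet.ncard) →
      ∀ (d v : ℕ) (F : SimpleGraph (Fin v)),
        (∀ S : Set (Fin v), S.Nonempty → ∃ w ∈ S, (S ∩ F.neighborSet w).ncard ≤ d) →
        (∀ c : ℝ, q ≤ c → Real.log n ≤ n * c ^ d →
          (H.copyCount F : ℝ) ≤ ((⊤ : SimpleGraph (Fin n)).copyCount F : ℝ) *
            (min 1 (55 * c)) ^ F.edgeSet.ncard) ∧
        (Real.log n ≤ n * q ^ d →
          (H.copyCount F : ℝ) ≤ ((⊤ : SimpleGraph (Fin n)).copyCount F : ℝ) *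
            (min 1 (55 * q)) ^ F.edgeSet.ncard)) ∧
    (∀ (n : ℕ) (H : SimpleGraph (Fin n)) (p : ℝ), 0 ≤ p →
      (∀ F' : SimpleGraph (Fin n), F' ≤ H →
        1 / 2 ≤ ((⊤ : SimpleGraph (Fin n)).copyCount F' : ℝ) * p ^ F'.edgeSet.ncard) →
      ∀ (d : ℕ) (c : ℝ), p ≤ c → Real.log n ≤ n * c ^ d →
        (∀ S : Set (Fin n), S.Nonempty → ∃ w ∈ S, (S ∩ H.neighborSet w).ncard ≤ d) →
        ∀ F' : SimpleGraph (Fin n), F' ≤ H →
          (H.copyCount F' : ℝ) ≤ ((⊤ : SimpleGraph (Fin n)).copyCount F' : ℝ) *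
            (min 1 (110 * c)) ^ F'.edgeSet.ncard) := by
  refine ⟨?_, ?_⟩
  · intro n H q hq hyp d v F hF
    refine ⟨fun c hqc hlog =>
      Vale.Agent.Helper23.KKDegenerate.degenerate_count H q hq hyp d c hqc hlog F hF, ?_⟩
    intro hlog
    exact Vale.Agent.Helper23.KKDegenerate.degenerate_count H q hq hyp d q le_rfl hlog F hF
  · intro n H p hp hyp d c hpc hlog hH F' hF'
    exact Vale.Agent.Helper23.KKDegenerate.degenerate_host_half H p hp hyp d c hpc hlog hH F' hF'

end Vale.Agent.Results.P064.DegenerateGraphs
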