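import Mathlib
import Vale.Agent.Helper8.KK.Half
import Vale.Agent.Helper25.KKThreshold

/-!
P064 (Kahn and Kalai, expectation thresholds of graph properties).

Let `H` be a graph on `[n]` and let `p >= 0` satisfy the condition defining the
expectation threshold `p_E` of the problem file: every graph `F' <= H` on `[n]` has
`N(K_n,F') p^(e(F')) >= 1/2`.  Here `N(G,F)` is the number of unlabelled copies of `F`
in `G` (subgraphs of `G` isomorphic to `F`), which is `SimpleGraph.copyCount`.

Then, for EVERY graph `F` (on any number `v` of vertices):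

* `N(H,F) <= N(K_n,F) p'^(e(F))` with `p' = min(1, 76896 (1 + n p) p)`;
* if `H` is a forest, the same with `p' = min(1, 720 max(p, log n / n))`;
* if `H` is a forest, the same with `p' = min(1, 170000 sqrt(log n) p)`.

So `p'` satisfies the condition defining the second expectation threshold (even without
its factor `1/2`).
-/

namespace Vale.Agent.Results.P064.ExpectationThresholds

open SimpleGraph

theorem result :
    ∀ (n : ℕ) (H : SimpleGraph (Fin n)) (p : ℝ), 0 ≤ p →
      (∀ F' : SimpleGraph (Fin n), F' ≤ H →
        1 / 2 ≤ ((⊤ : SimpleGraph (Fin n)).copyCount F' : ℝ) * p ^ F'.edgeSet.ncard) →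
      ∀ (v : ℕ) (F : SimpleGraph (Fin v)),
        ((H.copyCount F : ℝ) ≤ ((⊤ : SimpleGraph (Fin n)).copyCount F : ℝ)
            * (min 1 (76896 * (1 + (n : ℝ) * p) * p)) ^ F.edgeSet.ncard) ∧
        (H.IsAcyclic →
          (H.copyCount F : ℝ) ≤ ((⊤ : SimpleGraph (Fin n)).copyCount F : ℝ)
            * (min 1 (720 * max p (Real.log n / n))) ^ F.edgeSet.ncard) ∧
        (H.IsAcyclic →
          (H.copyCount F : ℝ) ≤ ((⊤ : SimpleGraph (Fin n)).copyCount F : ℝ)
            * (min 1 (170000 * Real.sqrt (Real.log n) * p)) ^ F.edgeSet.ncard) := by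
  intro n H p hp hyp v F
  exact ⟨Vale.Agent.Helper8.KK.all_graphs_half H p hp hyp F,
    fun hH => Vale.Agent.Helper25.KKThreshold.forest_threshold_any H hH p hp hyp F,
    fun hH => Vale.Agent.Helper25.KKThreshold.forest_sqrt H hH p hp hyp F⟩

end Vale.Agent.Results.P064.ExpectationThresholds
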