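import Vale.Agent.Helper25.KKDirect

/-!
P064 (Kahn and Kalai, expectation thresholds of graph properties): the two expectation
thresholds of the problem file, compared directly.

Let `H` be a graph on `[n]`.  `N(G,F)` is the number of unlabelled copies of `F` in `G`
(subgraphs of `G` isomorphic to `F`), which is `SimpleGraph.copyCount`, and the expected
number of copies of `F` in the random graph `G(n,p)` is `N(K_n,F) p^(e(F))`.

* `p_E(n,H)` is the least `p` in `[0,1]` with `N(K_n,F) p^(e(F)) >= 1/2` for all `F <= H`;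
* the second threshold is the least `p` in `[0,1]` with `N(K_n,F) p^(e(F)) >= N(H,F)/2`
  for all `F <= H`.

Both minima exist.  Writing `pE` and `pEt` for them:
`pE <= pEt <= 76896 (1 + n pE) pE` for every `H`, and for a forest `H` also
`pEt <= 720 max(pE, log n / n)` and `pEt <= 170000 sqrt(log n) pE`.
-/

namespace Vale.Agent.Results.P064.FractionalExpectationBound

open SimpleGraph

theorem result : ∀ (n : ℕ) (H : SimpleGraph (Fin n)),
    (∃ pE : ℝ, IsLeast {p : ℝ | 0 ≤ p ∧ p ≤ 1 ∧ ∀ F : SimpleGraph (Fin n), F ≤ H →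
      1 / 2 ≤ ((⊤ : SimpleGraph (Fin n)).copyCount F : ℝ) * p ^ F.edgeSet.ncard} pE) ∧
    (∃ pEt : ℝ, IsLeast {p : ℝ | 0 ≤ p ∧ p ≤ 1 ∧ ∀ F : SimpleGraph (Fin n), F ≤ H →
      (H.copyCount F : ℝ) / 2 ≤
        ((⊤ : SimpleGraph (Fin n)).copyCount F : ℝ) * p ^ F.edgeSet.ncard} pEt) ∧
    ∀ pE pEt : ℝ,
      IsLeast {p : ℝ | 0 ≤ p ∧ p ≤ 1 ∧ ∀ F : SimpleGraph (Fin n), F ≤ H →
        1 / 2 ≤ ((⊤ : SimpleGraph (Fin n)).copyCount F : ℝ) * p ^ F.edgeSet.ncard} pE →
      IsLeast {p : ℝ | 0 ≤ p ∧ p ≤ 1 ∧ ∀ F : SimpleGraph (Fin n), F ≤ H →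
        (H.copyCount F : ℝ) / 2 ≤
          ((⊤ : SimpleGraph (Fin n)).copyCount F : ℝ) * p ^ F.edgeSet.ncard} pEt →
      pE ≤ pEt ∧ pEt ≤ 76896 * (1 + (n : ℝ) * pE) * pE ∧
        (H.IsAcyclic → pEt ≤ 720 * max pE (Real.log n / n)) ∧
        (H.IsAcyclic → pEt ≤ 170000 * Real.sqrt (Real.log n) * pE) := by
  intro n H
  exact ⟨Vale.Agent.Helper25.KKDirect.exists_pE H, Vale.Agent.Helper25.KKDirect.exists_pEt H,
    fun pE pEt hE hT => Vale.Agent.Helper25.KKDirect.compare H pE pEt hE hT⟩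

end Vale.Agent.Results.P064.FractionalExpectationBound
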