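import Vale.Agent.Helper8.KK.Linear
import Vale.Agent.Helper25.KKIsolated

/-!
P064 (second Kahn–Kalai conjecture): the counting inequality of Dubroff–Kahn–Park type
for every graph `F`, with `L = 19224 * (1 + n q)`.
-/

namespace Vale.Agent.Results.P064.GraphsPolynomialConstant

open SimpleGraph

/-- If every subgraph of `H` has expected count at least `1` in `G(n,q)`, then
(1) every graph `F` satisfies `N(H,F) ≤ N(K_n,F) * min(1, L q)^(e(F))` with
`L = 19224 * (1 + n q)`;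
(2) every connected `F` satisfies `N(H,F) ≤ 27 * N(K_n,F) * (96 * (1 + n q) * q)^(e(F))`;
(3) every connected `F` on `v` vertices satisfies, when `q < 1` and `n q^2 ≤ 1`,
`N(H,F) ≤ 15 * N(K_n,F) * q^(e(F)) * (96 * (1 + n q))^v`. -/
theorem result :
    ∀ (n : ℕ) (H : SimpleGraph (Fin n)) (q : ℝ), 0 ≤ q →
      (∀ F' : SimpleGraph (Fin n), F' ≤ H →
        1 ≤ ((⊤ : SimpleGraph (Fin n)).copyCount F' : ℝ) * q ^ F'.edgeSet.ncard) →
      ∀ (v : ℕ) (F : SimpleGraph (Fin v)),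
        ((H.copyCount F : ℝ) ≤ ((⊤ : SimpleGraph (Fin n)).copyCount F : ℝ) *
            (min 1 (19224 * (1 + (n : ℝ) * q) * q)) ^ F.edgeSet.ncard) ∧
        (F.Connected →
          (H.copyCount F : ℝ) ≤ 27 * ((⊤ : SimpleGraph (Fin n)).copyCount F : ℝ) *
            (96 * (1 + (n : ℝ) * q) * q) ^ F.edgeSet.ncard) ∧
        (F.Connected → q < 1 → (n : ℝ) * q ^ 2 ≤ 1 →
          (H.copyCount F : ℝ) ≤ 15 * ((⊤ : SimpleGraph (Fin n)).copyCount F : ℝ) *
            q ^ F.edgeSet.ncard * (96 * (1 + (n : ℝ) * q)) ^ v) := by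
  intro n H q hq hyp v F
  have hmono : ∀ (w : ℕ) (G : SimpleGraph (Fin w)),
      (H.copyCount G : ℝ) ≤ ((⊤ : SimpleGraph (Fin n)).copyCount G : ℝ) := by
    intro w G
    exact_mod_cast Vale.Agent.Helper8.KK.copyCount_mono' (le_top : H ≤ ⊤) G
  have hnq0 : (0:ℝ) ≤ (n : ℝ) * q := by positivity
  have hconn : ∀ (w : ℕ) (G : SimpleGraph (Fin w)), G.Connected → 1 ≤ G.edgeSet.ncard →
      (H.copyCount G : ℝ) ≤ 27 * ((⊤ : SimpleGraph (Fin n)).copyCount G : ℝ) *
        (96 * (1 + (n : ℝ) * q) * q) ^ G.edgeSet.ncard := by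
    intro w G hG he
    have h1 := Vale.Agent.Helper8.KK.connected_count_linear H q hq hyp G hG he
    rw [mul_pow]
    calc (H.copyCount G : ℝ)
        ≤ 27 * ((⊤ : SimpleGraph (Fin n)).copyCount G : ℝ) *
            q ^ G.edgeSet.ncard * (96 * (1 + (n : ℝ) * q)) ^ G.edgeSet.ncard := h1
      _ = 27 * ((⊤ : SimpleGraph (Fin n)).copyCount G : ℝ) *
            ((96 * (1 + (n : ℝ) * q)) ^ G.edgeSet.ncard * q ^ G.edgeSet.ncard) := by ring
  refine ⟨?_, ?_, ?_⟩
  · have hc0 : (0:ℝ) ≤ 2592 * (1 + (n : ℝ) * q) * q := by positivity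
    have hcc : ∀ (w : ℕ) (G : SimpleGraph (Fin w)), G.Connected → 1 ≤ G.edgeSet.ncard →
        (H.copyCount G : ℝ) ≤ ((⊤ : SimpleGraph (Fin n)).copyCount G : ℝ) *
          (2592 * (1 + (n : ℝ) * q) * q) ^ G.edgeSet.ncard := by
      intro w G hG he
      have h1 := hconn w G hG he
      have hN : (0:ℝ) ≤ ((⊤ : SimpleGraph (Fin n)).copyCount G : ℝ) := Nat.cast_nonneg _
      have hb0 : (0:ℝ) ≤ 96 * (1 + (n : ℝ) * q) * q := by positivity
      have h27 : (27:ℝ) ≤ 27 ^ G.edgeSet.ncard := by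
        calc (27:ℝ) = 27 ^ 1 := (pow_one _).symm
          _ ≤ 27 ^ G.edgeSet.ncard := pow_le_pow_right₀ (by norm_num) he
      have h2 : (2592 * (1 + (n : ℝ) * q) * q) ^ G.edgeSet.ncard
          = 27 ^ G.edgeSet.ncard * (96 * (1 + (n : ℝ) * q) * q) ^ G.edgeSet.ncard := by
        rw [← mul_pow]
        congr 1
        ring
      rw [h2]
      have hp : (0:ℝ) ≤ (96 * (1 + (n : ℝ) * q) * q) ^ G.edgeSet.ncard := by positivity
      calc (H.copyCount G : ℝ)
          ≤ 27 * ((⊤ : SimpleGraph (Fin n)).copyCount G : ℝ) *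
              (96 * (1 + (n : ℝ) * q) * q) ^ G.edgeSet.ncard := h1
        _ = ((⊤ : SimpleGraph (Fin n)).copyCount G : ℝ) *
              (27 * (96 * (1 + (n : ℝ) * q) * q) ^ G.edgeSet.ncard) := by ring
        _ ≤ ((⊤ : SimpleGraph (Fin n)).copyCount G : ℝ) *
              (27 ^ G.edgeSet.ncard * (96 * (1 + (n : ℝ) * q) * q) ^ G.edgeSet.ncard) := by
            apply mul_le_mul_of_nonneg_left _ hN
            exact mul_le_mul_of_nonneg_right h27 hp
    have h3 := Vale.Agent.Helper25.KKIsolated.all_graphs_any_general H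
      (2592 * (1 + (n : ℝ) * q) * q) hc0 hcc F
    have hexp : Real.exp 2 * (2592 * (1 + (n : ℝ) * q) * q)
        ≤ 19224 * (1 + (n : ℝ) * q) * q := by
      have h24 := Vale.Agent.Helper25.KKAllGraphs.exp_two_mul_le
      have hpos : (0:ℝ) ≤ (1 + (n : ℝ) * q) * q := by positivity
      nlinarith
    refine h3.trans ?_
    apply mul_le_mul_of_nonneg_left _ (Nat.cast_nonneg _)
    have h0 : (0:ℝ) ≤ min 1 (Real.exp 2 * (2592 * (1 + (n : ℝ) * q) * q)) := by
      apply le_min zero_le_one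
      positivity
    exact pow_le_pow_left₀ h0 (min_le_min le_rfl hexp) _
  · intro hF
    by_cases he : F.edgeSet.ncard = 0
    · rw [he, pow_zero, mul_one]
      have h1 := hmono v F
      have hN : (0:ℝ) ≤ ((⊤ : SimpleGraph (Fin n)).copyCount F : ℝ) := Nat.cast_nonneg _
      linarith
    · exact hconn v F hF (Nat.one_le_iff_ne_zero.mpr he)
  · intro hF hq1 hnq
    by_cases he : F.edgeSet.ncard = 0
    · rw [he, pow_zero, mul_one]
      have h1 := hmono v F
      have hN : (0:ℝ) ≤ ((⊤ : SimpleGraph (Fin n)).copyCount F : ℝ) := Nat.cast_nonneg _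
      have h96 : (1:ℝ) ≤ (96 * (1 + (n : ℝ) * q)) ^ v := by
        apply one_le_pow₀
        linarith
      nlinarith
    · exact Vale.Agent.Helper8.KK.connected_count_poly H q hq hq1 hnq hyp F hF
        (Nat.one_le_iff_ne_zero.mpr he)

end Vale.Agent.Results.P064.GraphsPolynomialConstant
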