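import Vale.Agent.Helper8.KK.Degree

/-!
P064 (second Kahn–Kalai conjecture): the counting inequality of Dubroff–Kahn–Park type
for every graph `F`, when the host `H` has maximum degree at most `D`, with the constant
`L = 134 (D + 1)`, whatever `n q` is; and its form at the threshold `1/2` of the definition
of the expectation threshold.
-/

namespace Vale.Agent.Results.P064.HostDegree

open SimpleGraph

/-- Let every vertex of `H` have at most `D` neighbours.
(1) If every subgraph of `H` has expected count at least `1` in `G(n,q)`, then every graph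
`F` satisfies `N(H,F) ≤ N(K_n,F) * min(1, 134 (D + 1) q)^(e(F))`.
(2) If every subgraph of `H` has expected count at least `1/2` in `G(n,p)`, then every graph
`F` satisfies `N(H,F) ≤ N(K_n,F) * min(1, 268 (D + 1) p)^(e(F))`. -/
theorem result :
    ∀ (n : ℕ) (H : SimpleGraph (Fin n)) (D : ℕ),
      (∀ u : Fin n, (H.neighborSet u).ncard ≤ D) →
      (∀ q : ℝ, 0 ≤ q →
        (∀ F' : SimpleGraph (Fin n), F' ≤ H →
          1 ≤ ((⊤ : SimpleGraph (Fin n)).copyCount F' : ℝ) * q ^ F'.edgeSet.ncard) →
        ∀ (v : ℕ) (F : SimpleGraph (Fin v)),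
          (H.copyCount F : ℝ) ≤ ((⊤ : SimpleGraph (Fin n)).copyCount F : ℝ) *
            (min 1 (134 * ((D : ℝ) + 1) * q)) ^ F.edgeSet.ncard) ∧
      (∀ p : ℝ, 0 ≤ p →
        (∀ F' : SimpleGraph (Fin n), F' ≤ H →
          1 / 2 ≤ ((⊤ : SimpleGraph (Fin n)).copyCount F' : ℝ) * p ^ F'.edgeSet.ncard) →
        ∀ (v : ℕ) (F : SimpleGraph (Fin v)),
          (H.copyCount F : ℝ) ≤ ((⊤ : SimpleGraph (Fin n)).copyCount F : ℝ) *
            (min 1 (268 * ((D : ℝ) + 1) * p)) ^ F.edgeSet.ncard) := by
  intro n H D hD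
  exact ⟨fun q hq hyp v F => Vale.Agent.Helper8.KK.all_graphs_maxdeg H D hD q hq hyp F,
    fun p hp hyp v F => Vale.Agent.Helper8.KK.all_graphs_maxdeg_half H D hD p hp hyp F⟩

end Vale.Agent.Results.P064.HostDegree
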